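import Vale.Agent.Lib.P007.Core

open Polynomial Finset

namespace Vale.Agent.Lib.P007

theorem spaced_ivt (c : ℝ) (hc : 0 < c) (k : ℕ) (r : ℝ) (hr : |r| < (c / 2) ^ k) (j : ℕ)
    (hj : j < k) :
    ∃ x, c * j - c / 2 < x ∧ x < c * j + c / 2 ∧ ∏ i ∈ range k, (x - c * i) = r := by
  set P : ℝ → ℝ := fun x => ∏ i ∈ range k, (x - c * i) with hP
  set a := c * j - c / 2 with ha
  set b := c * j + c / 2 with hb
  have hcont : Continuous P := by
    apply continuous_finsetProd
    intro i _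
    fun_prop
  have hcase : ∀ i : ℕ, (i < j ∧ (i : ℝ) + 1 ≤ j) ∨ i = j ∨ (j < i ∧ (j : ℝ) + 1 ≤ i) := by
    intro i
    rcases lt_trichotomy i j with h | h | h
    · left; exact ⟨h, by exact_mod_cast h⟩
    · right; left; exact h
    · right; right; exact ⟨h, by exact_mod_cast h⟩
  have habsa : ∀ i : ℕ, c / 2 ≤ |a - c * i| := by
    intro i
    rcases hcase i with ⟨_, h⟩ | h | ⟨_, h⟩
    · rw [le_abs]; left; rw [ha]; nlinarith
    · rw [le_abs]; right; rw [ha, h]; linarith
    · rw [le_abs]; right; rw [ha]; nlinarith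
  have habsb : ∀ i : ℕ, c / 2 ≤ |b - c * i| := by
    intro i
    rcases hcase i with ⟨_, h⟩ | h | ⟨_, h⟩
    · rw [le_abs]; left; rw [hb]; nlinarith
    · rw [le_abs]; left; rw [hb, h]; linarith
    · rw [le_abs]; right; rw [hb]; nlinarith
  have hPa : (c / 2) ^ k ≤ |P a| := by
    rw [hP]
    simp only [Finset.abs_prod]
    calc (c / 2) ^ k = ∏ _i ∈ range k, (c / 2) := by rw [Finset.prod_const, Finset.card_range]
      _ ≤ _ := Finset.prod_le_prod (fun i _ => by positivity) (fun i _ => habsa i)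
  have hPb : (c / 2) ^ k ≤ |P b| := by
    rw [hP]
    simp only [Finset.abs_prod]
    calc (c / 2) ^ k = ∏ _i ∈ range k, (c / 2) := by rw [Finset.prod_const, Finset.card_range]
      _ ≤ _ := Finset.prod_le_prod (fun i _ => by positivity) (fun i _ => habsb i)
  have hneg : P a * P b < 0 := by
    rw [hP]
    simp only
    rw [← Finset.prod_mul_distrib, ← Finset.mul_prod_erase (range k) _ (mem_range.mpr hj)]
    apply mul_neg_of_neg_of_pos
    · rw [ha, hb]; nlinarith
    · apply Finset.prod_pos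
      intro i hi
      have hij : i ≠ j := (Finset.mem_erase.mp hi).1
      rcases hcase i with ⟨_, h⟩ | h | ⟨_, h⟩
      · rw [ha, hb]
        apply mul_pos <;> nlinarith
      · exact absurd h hij
      · rw [ha, hb]
        apply mul_pos_of_neg_of_neg <;> nlinarith
  have hab : a ≤ b := by rw [ha, hb]; linarith
  have hr' := abs_lt.mp hr
  rcases lt_trichotomy (P a) 0 with h0 | h0 | h0
  · have hb0 : 0 < P b := pos_of_mul_neg_right hneg h0.le
    rw [abs_of_neg h0] at hPa
    rw [abs_of_pos hb0] at hPb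
    obtain ⟨x, hx, hxr⟩ := intermediate_value_Ioo hab hcont.continuousOn
      (show r ∈ Set.Ioo (P a) (P b) from ⟨by linarith, by linarith⟩)
    exact ⟨x, hx.1, hx.2, hxr⟩
  · rw [h0, zero_mul] at hneg; exact absurd hneg (lt_irrefl _)
  · have hb0 : P b < 0 := neg_of_mul_neg_right hneg h0.le
    rw [abs_of_pos h0] at hPa
    rw [abs_of_neg hb0] at hPb
    obtain ⟨x, hx, hxr⟩ := intermediate_value_Ioo' hab hcont.continuousOn
      (show r ∈ Set.Ioo (P b) (P a) from ⟨by linarith, by linarith⟩)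
    exact ⟨x, hx.1, hx.2, hxr⟩


/-- `∏_{i<k} (X - c i)` -/
noncomputable def spaced (c : ℤ) (k : ℕ) : ℤ[X] := ∏ i ∈ range k, (X - C (c * (i : ℤ)))

theorem spaced_monic (c : ℤ) (k : ℕ) : (spaced c k).Monic :=
  monic_prod_of_monic _ _ (fun _ _ => monic_X_sub_C _)

theorem spaced_natDegree (c : ℤ) (k : ℕ) : (spaced c k).natDegree = k := by
  unfold spaced
  rw [natDegree_finsetProd_X_sub_C_eq_card, card_range]

theorem aeval_spaced (c : ℤ) (k : ℕ) (x : ℝ) :
    aeval x (spaced c k) = ∏ i ∈ range k, (x - (c : ℝ) * i) := by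
  simp [spaced, map_prod]

theorem eval_spaced (c : ℤ) (k : ℕ) (z : ℤ) :
    (spaced c k).eval z = ∏ i ∈ range k, (z - c * i) := by
  simp [spaced, eval_prod]

theorem spaced_map (c : ℤ) (hc : (2 : ℤ) ∣ c) (k : ℕ) :
    (spaced c k).map (Int.castRingHom (ZMod 2)) = X ^ k := by
  have h0 : ((c : ℤ) : ZMod 2) = 0 := (ZMod.intCast_zmod_eq_zero_iff_dvd c 2).mpr (by exact_mod_cast hc)
  unfold spaced
  rw [Polynomial.map_prod]
  have : ∀ i ∈ range k, (X - C (c * (i : ℤ))).map (Int.castRingHom (ZMod 2)) = X := by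
    intro i _
    rw [Polynomial.map_sub, Polynomial.map_X, Polynomial.map_C]
    have : (Int.castRingHom (ZMod 2)) (c * (i : ℤ)) = 0 := by
      rw [map_mul]
      simp [h0]
    rw [this]; simp
  rw [prod_congr rfl this, prod_const, card_range]

/-- `g = ∏_{i<l}(X - 4 i) - 2` -/
noncomputable def gPoly (l : ℕ) : ℤ[X] := spaced 4 l - C 2

theorem gPoly_natDegree (l : ℕ) : (gPoly l).natDegree = l := by
  unfold gPoly
  rw [natDegree_sub_C, spaced_natDegree]

theorem gPoly_monic (l : ℕ) (hl : 0 < l) : (gPoly l).Monic := by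
  unfold gPoly
  apply (spaced_monic 4 l).sub_of_left
  rw [degree_eq_natDegree (spaced_monic 4 l).ne_zero, spaced_natDegree]
  exact lt_of_le_of_lt degree_C_le (by exact_mod_cast hl)

theorem gPoly_map (l : ℕ) : (gPoly l).map (Int.castRingHom (ZMod 2)) = X ^ l := by
  unfold gPoly
  rw [Polynomial.map_sub, spaced_map 4 (by norm_num), Polynomial.map_C]
  have : (Int.castRingHom (ZMod 2)) 2 = 0 := by decide
  rw [this]; simp

theorem gPoly_no_int_root (l : ℕ) (hl : 2 ≤ l) (z : ℤ) : (gPoly l).eval z ≠ 0 := by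
  intro h
  unfold gPoly at h
  rw [eval_sub, eval_C, eval_spaced] at h
  have h0 : 0 ∈ range l := mem_range.mpr (by omega)
  have h1 : 1 ∈ (range l).erase 0 := mem_erase.mpr ⟨by norm_num, mem_range.mpr (by omega)⟩
  rw [← mul_prod_erase _ _ h0, ← mul_prod_erase _ _ h1] at h
  set M := ∏ x ∈ ((range l).erase 0).erase 1, (z - 4 * (x : ℤ)) with hM
  simp only [Nat.cast_zero, mul_zero, sub_zero, Nat.cast_one, mul_one] at h
  have hq : z * (z - 4) ∣ 2 := ⟨M, by linarith⟩
  have hle := Int.le_of_dvd (by norm_num) hq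
  have hz1 : z ≤ 4 := by
    by_contra hc
    push Not at hc
    nlinarith
  have hz0 : 0 ≤ z := by
    by_contra hc
    push Not at hc
    nlinarith
  interval_cases z <;> omega

/-- `f = g ∘ T`, `T = ∏_{i<k} (X - 8 l i)` -/
noncomputable def fPoly (k l : ℕ) : ℤ[X] := (gPoly l).comp (spaced (8 * l) k)

theorem fPoly_monic (k l : ℕ) (hk : 0 < k) (hl : 0 < l) : (fPoly k l).Monic :=
  (gPoly_monic l hl).comp (spaced_monic _ _) (by rw [spaced_natDegree]; omega)

theorem fPoly_natDegree (k l : ℕ) : (fPoly k l).natDegree = k * l := by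
  unfold fPoly
  rw [natDegree_comp, gPoly_natDegree, spaced_natDegree, mul_comm]

theorem fPoly_map (k l : ℕ) : (fPoly k l).map (Int.castRingHom (ZMod 2)) = X ^ (k * l) := by
  unfold fPoly
  rw [Polynomial.map_comp, gPoly_map, spaced_map _ ⟨4 * l, by ring⟩]
  simp [pow_mul]

theorem fPoly_coeff_even (k l : ℕ) (i : ℕ) (hi : i < (fPoly k l).natDegree) :
    (2 : ℤ) ∣ (fPoly k l).coeff i := by
  rw [fPoly_natDegree] at hi
  have h := congrArg (fun p => p.coeff i) (fPoly_map k l)
  simp only [coeff_map, coeff_X_pow, if_neg hi.ne] at h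
  have := (ZMod.intCast_zmod_eq_zero_iff_dvd ((fPoly k l).coeff i) 2).mp (by simpa using h)
  exact_mod_cast this

theorem fPoly_coeff_zero (k l : ℕ) (hk : 0 < k) (hl : 0 < l) : (fPoly k l).coeff 0 = -2 := by
  rw [coeff_zero_eq_eval_zero]
  unfold fPoly gPoly
  rw [eval_comp, eval_spaced, prod_eq_zero (mem_range.mpr hk) (by simp), eval_sub, eval_spaced,
    prod_eq_zero (mem_range.mpr hl) (by simp)]
  simp


theorem fPoly_roots (k l : ℕ) (hk : 1 ≤ k) (hl : 2 ≤ l) :
    ∃ ρ : Fin (k * l) → ℝ, Function.Injective ρ ∧ ∀ a, aeval (ρ a) (fPoly k l) = 0 := by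
  have hl4 : (2 : ℝ) ≤ l := by exact_mod_cast hl
  have hy : ∀ j : Fin l, ∃ y : ℝ, 4 * (j : ℕ) - 4 / 2 < y ∧ y < 4 * (j : ℕ) + 4 / 2 ∧
      ∏ i ∈ range l, (y - 4 * i) = 2 := fun j =>
    spaced_ivt 4 (by norm_num) l 2 (by
      have : (2 : ℝ) ^ 2 ≤ 2 ^ l := pow_le_pow_right₀ (by norm_num) hl
      rw [abs_of_pos (by norm_num : (0:ℝ) < 2)]
      norm_num at this ⊢
      linarith) j j.2
  choose y hy1 hy2 hy3 using hy
  set c : ℝ := 8 * l with hc
  have hcpos : 0 < c := by rw [hc]; linarith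
  have hybound : ∀ j : Fin l, |y j| < (c / 2) ^ k := by
    intro j
    have h1 : (1 : ℝ) ≤ c / 2 := by rw [hc]; linarith
    have h2 : c / 2 ≤ (c / 2) ^ k := le_self_pow₀ h1 (by omega)
    have h3 : ((j : ℕ) : ℝ) + 1 ≤ l := by exact_mod_cast j.2
    have h4 : (0 : ℝ) ≤ ((j : ℕ) : ℝ) := Nat.cast_nonneg _
    rw [abs_lt]
    constructor
    · have := hy1 j; rw [hc] at h2; linarith
    · have := hy2 j; rw [hc] at h2; linarith
  have hx : ∀ (j : Fin l) (t : Fin k), ∃ x : ℝ, c * (t : ℕ) - c / 2 < x ∧ x < c * (t : ℕ) + c / 2 ∧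
      ∏ i ∈ range k, (x - c * i) = y j := fun j t =>
    spaced_ivt c hcpos k (y j) (hybound j) t t.2
  choose x hx1 hx2 hx3 using hx
  refine ⟨fun a => x (finProdFinEquiv.symm a).2 (finProdFinEquiv.symm a).1, ?_, ?_⟩
  · intro a b hab
    simp only at hab
    set ja := (finProdFinEquiv.symm a).2
    set ta := (finProdFinEquiv.symm a).1
    set jb := (finProdFinEquiv.symm b).2
    set tb := (finProdFinEquiv.symm b).1
    have hyy : y ja = y jb := by rw [← hx3 ja ta, ← hx3 jb tb, hab]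
    have hj : ja = jb := by
      apply Fin.ext
      have h1 := hy1 ja; have h2 := hy2 ja; have h3 := hy1 jb; have h4 := hy2 jb
      rw [hyy] at h1 h2
      have h5 : ((ja : ℕ) : ℝ) < (jb : ℕ) + 1 := by linarith
      have h6 : ((jb : ℕ) : ℝ) < (ja : ℕ) + 1 := by linarith
      have h5' : (ja : ℕ) < (jb : ℕ) + 1 := by exact_mod_cast h5
      have h6' : (jb : ℕ) < (ja : ℕ) + 1 := by exact_mod_cast h6
      omega
    have ht : ta = tb := by
      apply Fin.ext
      have h1 := hx1 ja ta; have h2 := hx2 ja ta; have h3 := hx1 jb tb; have h4 := hx2 jb tb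
      rw [hab] at h1 h2
      have h5 : ((ta : ℕ) : ℝ) < (tb : ℕ) + 1 := by
        by_contra hcon
        push Not at hcon
        nlinarith
      have h6 : ((tb : ℕ) : ℝ) < (ta : ℕ) + 1 := by
        by_contra hcon
        push Not at hcon
        nlinarith
      have h5' : (ta : ℕ) < (tb : ℕ) + 1 := by exact_mod_cast h5
      have h6' : (tb : ℕ) < (ta : ℕ) + 1 := by exact_mod_cast h6
      omega
    apply finProdFinEquiv.symm.injective
    exact Prod.ext ht hj
  · intro a
    unfold fPoly gPoly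
    rw [aeval_comp, aeval_spaced, map_sub, aeval_spaced, aeval_C]
    have hcast : (((8 * (l : ℤ)) : ℤ) : ℝ) = c := by rw [hc]; push_cast; ring
    rw [hcast, hx3]
    have h4 : ((4 : ℤ) : ℝ) = 4 := by norm_num
    rw [h4, hy3]
    simp

theorem fails_composite (k l : ℕ) (hk : 2 ≤ k) (hl : 2 ≤ l) : Fails (k * l) := by
  obtain ⟨ρ, hρ, hroot⟩ := fPoly_roots k l (by omega) hl
  have hkl : 0 < k * l := Nat.mul_pos (by omega) (by omega)
  apply fails_of_poly (k * l) hkl (fPoly k l) (gPoly l) (spaced (8 * l) k)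
    (fPoly_monic k l (by omega) (by omega)) ?_ (fPoly_natDegree k l) ρ hρ hroot
    (gPoly_monic l (by omega)) ?_ rfl (gPoly_no_int_root l hl)
  · apply irreducible_of_eis2 _ (fPoly_monic k l (by omega) (by omega))
    · rw [fPoly_natDegree]; exact hkl
    · exact fPoly_coeff_even k l
    · rw [fPoly_coeff_zero k l (by omega) (by omega)]; norm_num
  · rw [gPoly_natDegree]
    nlinarith

end Vale.Agent.Lib.P007
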