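import Vale.Agent.Lib.P007.Defs

open Matrix MeasureTheory Filter Topology NumberField Polynomial
open scoped CompactlySupported

namespace Vale.Agent.Lib.P007

theorem slz_closed (n : ℕ) : IsClosed (SLZ n : Set (SLR n)) := by
  have := (Int.isClosedEmbedding_coe_real).specialLinearGroup_map (n := Fin n)
    (f := Int.castRingHom ℝ)
  simpa [SLZ] using this.isClosed_range

instance (n : ℕ) : IsClosed (SLZ n : Set (SLR n)) := slz_closed n

instance (n : ℕ) : LocallyCompactSpace (Matrix (Fin n) (Fin n) ℝ) :=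
  inferInstanceAs (LocallyCompactSpace (Fin n → Fin n → ℝ))

instance (n : ℕ) : SecondCountableTopology (Matrix (Fin n) (Fin n) ℝ) :=
  inferInstanceAs (SecondCountableTopology (Fin n → Fin n → ℝ))

instance (n : ℕ) : LocallyCompactSpace (SLR n) :=
  (Matrix.SpecialLinearGroup.isClosedEmbedding_val).locallyCompactSpace

instance (n : ℕ) : SecondCountableTopology (SLR n) :=
  (Matrix.SpecialLinearGroup.isClosedEmbedding_val).isEmbedding.secondCountableTopology

theorem exists_test_function (n : ℕ) (U : Set (LatSpace n)) (hU : IsOpen U) (x0 : LatSpace n)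
    (hx0 : x0 ∈ U) (m : Measure (LatSpace n)) [IsProbabilityMeasure m]
    [SMulInvariantMeasure (SLR n) (LatSpace n) m] :
    ∃ f : C_c(LatSpace n, ℝ), (∀ x, x ∉ U → f x = 0) ∧ 0 < ∫ x, f x ∂m := by
  obtain ⟨f, hf1, hf0, hfc, hf01⟩ := exists_continuous_one_zero_of_isCompact
    (isCompact_singleton (x := x0)) (hU.isClosed_compl) (by simpa using hx0)
  have hpos : m.IsOpenPosMeasure := ⟨fun V hV hne =>
    (measure_isOpen_pos_of_smulInvariant_of_ne_zero (SLR n) (IsProbabilityMeasure.ne_zero m)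
      hV hne).ne'⟩
  refine ⟨⟨f, hfc⟩, fun x hx => hf0 hx, ?_⟩
  apply Continuous.integral_pos_of_hasCompactSupport_nonneg_nonzero f.continuous hfc
    (fun x => (hf01 x).1) (x := x0)
  have := hf1 (Set.mem_singleton x0)
  simp at this
  simp [this]

theorem latOf_mul_subset {n : ℕ} (g γ : SLR n) (hγ : γ ∈ SLZ n) : latOf (g * γ) ⊆ latOf g := by
  rintro v ⟨z, rfl⟩
  obtain ⟨γ0, rfl⟩ := hγ
  refine ⟨γ0.1 *ᵥ z, ?_⟩
  rw [Matrix.SpecialLinearGroup.coe_mul, ← Matrix.mulVec_mulVec]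
  congr 1
  ext a
  simp [Matrix.mulVec, dotProduct, Matrix.SpecialLinearGroup.map_apply_coe]

theorem latOf_eq_of_mk_eq {n : ℕ} (g g' : SLR n) (h : (g : LatSpace n) = (g' : LatSpace n)) :
    latOf g = latOf g' := by
  have h1 : g⁻¹ * g' ∈ SLZ n := QuotientGroup.eq.mp h
  have h2 : g'⁻¹ * g ∈ SLZ n := QuotientGroup.eq.mp h.symm
  apply Set.Subset.antisymm
  · have := latOf_mul_subset g' _ h2
    simpa using this
  · have := latOf_mul_subset g _ h1
    simpa using this

/-- matrices `g` such that `g⁻¹ diag(D) g` is integral -/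
def intConj {n : ℕ} (D : Fin n → ℝ) : Set (SLR n) :=
  {g | (g⁻¹ : SLR n).1 * Matrix.diagonal D * g.1 ∈
    Set.range (fun N : Matrix (Fin n) (Fin n) ℤ => N.map (Int.cast : ℤ → ℝ))}

theorem intConj_closed {n : ℕ} (D : Fin n → ℝ) : IsClosed (intConj D) := by
  have h1 : IsClosed (Set.range (fun N : Matrix (Fin n) (Fin n) ℤ => N.map (Int.cast : ℤ → ℝ))) :=
    (Int.isClosedEmbedding_coe_real.matrix_map (m := Fin n) (n := Fin n)).isClosed_range
  have h2 : Continuous (fun g : SLR n => (g⁻¹ : SLR n).1 * Matrix.diagonal D * g.1) := by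
    have : Continuous (fun g : SLR n => (g⁻¹ : SLR n)) := continuous_inv
    have h3 : Continuous (fun g : SLR n => (g⁻¹ : SLR n).1) := continuous_subtype_val.comp this
    have h4 : Continuous (fun g : SLR n => g.1) := continuous_subtype_val
    exact (h3.mul continuous_const).mul h4
  exact h1.preimage h2

theorem mem_intConj_of_stable {n : ℕ} (D : Fin n → ℝ) (g : SLR n)
    (h : ∀ v ∈ latOf g, (fun j => D j * v j) ∈ latOf g) : g ∈ intConj D := by
  have key : ∀ b : Fin n, ∃ z : Fin n → ℤ,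
      (fun j => D j * g.1 j b) = g.1 *ᵥ (fun j => (z j : ℝ)) := by
    intro b
    have hb : (fun j => g.1 j b) ∈ latOf g := by
      refine ⟨Pi.single b 1, ?_⟩
      ext a
      simp [Matrix.mulVec, dotProduct, Pi.single_apply]
    exact h _ hb
  choose z hz using key
  refine ⟨Matrix.of (fun a b => z b a), ?_⟩
  have h1 : Matrix.diagonal D * g.1 =
      g.1 * (Matrix.of (fun a b => z b a)).map (Int.cast : ℤ → ℝ) := by
    ext a b
    have := congrFun (hz b) a
    simp only [Matrix.diagonal_mul]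
    rw [this]
    simp [Matrix.mulVec, dotProduct, Matrix.mul_apply]
  have h2 : (g⁻¹ : SLR n).1 * g.1 = 1 := by
    rw [← Matrix.SpecialLinearGroup.coe_mul]; simp
  show _ = _
  rw [Matrix.mul_assoc, h1, ← Matrix.mul_assoc, h2, Matrix.one_mul]

theorem one_not_mem_intConj {n : ℕ} (D : Fin n → ℝ) (j : Fin n) (hj : ∀ k : ℤ, D j ≠ k) :
    (1 : SLR n) ∉ intConj D := by
  rintro ⟨N, hN⟩
  have := congrFun (congrFun hN j) j
  simp at this
  exact hj _ this.symm

theorem no_conv_of_closed (n : ℕ) (Z : Set (SLR n)) (hZ : IsClosed Z) (h1 : (1 : SLR n) ∉ Z)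
    (m : Measure (LatSpace n)) [IsProbabilityMeasure m]
    [SMulInvariantMeasure (SLR n) (LatSpace n) m] :
    ∃ f : C_c(LatSpace n, ℝ), 0 < ∫ x, f x ∂m ∧ ∀ S : Set (LatSpace n),
      (∀ g : SLR n, (g : LatSpace n) ∈ S → g ∈ Z) → ∀ μ : Measure (LatSpace n), μ Sᶜ = 0 →
        ∫ x, f x ∂μ = 0 := by
  have hU : IsOpen ((fun g : SLR n => (g : LatSpace n)) '' Zᶜ) :=
    QuotientGroup.isOpenMap_coe _ hZ.isOpen_compl
  obtain ⟨f, hf0, hfpos⟩ := exists_test_function n _ hU ((1 : SLR n) : LatSpace n) ⟨1, h1, rfl⟩ m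
  refine ⟨f, hfpos, fun S hS μ hμ => ?_⟩
  apply integral_eq_zero_of_ae
  have : {x | ¬ (f x = (0 : LatSpace n → ℝ) x)} ⊆ Sᶜ := by
    intro x hx hxS
    apply hx
    apply hf0
    rintro ⟨g, hg, rfl⟩
    exact hg (hS g hxS)
  exact measure_mono_null this hμ

section field
variable {K : Type*} [Field K] [NumberField K]

omit [NumberField K] in
theorem mem_ordK {O : Subring (𝓞 K)} {s : 𝓞 K} (hs : s ∈ O) : (s : K) ∈ ordK O := by
  show (s : K) ∈ (O.map (algebraMap (𝓞 K) K)).toAddSubgroup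
  exact ⟨s, hs, rfl⟩

omit [NumberField K] in
theorem packet_rep_mem {n : ℕ} (σ : Fin n ≃ (K →+* ℝ)) (O : Subring (𝓞 K)) (s : 𝓞 K) (hs : s ∈ O)
    (g : SLR n) (hg : (g : LatSpace n) ∈ packetSet σ O) : g ∈ intConj (fun j => σ j (s : K)) := by
  obtain ⟨g', I, c, w, u, hx, hI, -, -, -, -, -, hlat⟩ := hg
  apply mem_intConj_of_stable
  rw [latOf_eq_of_mk_eq g g' hx, hlat]
  rintro v ⟨α, hα, rfl⟩
  refine ⟨(s : K) * α, hI.1 _ (mem_ordK hs) _ hα, ?_⟩
  ext j
  simp only [map_mul]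
  ring

/-- The order `ℤ[s] + i 𝓞 K`. -/
def ordSeq (s : 𝓞 K) (i : ℕ) : Subring (𝓞 K) where
  carrier := {x | ∃ (p : ℤ[X]) (y : 𝓞 K), x = aeval s p + (i : 𝓞 K) * y}
  mul_mem' := by
    rintro _ _ ⟨p, y, rfl⟩ ⟨q, z, rfl⟩
    refine ⟨p * q, aeval s p * z + y * aeval s q + (i : 𝓞 K) * y * z, ?_⟩
    rw [map_mul]; ring
  one_mem' := ⟨1, 0, by simp⟩
  add_mem' := by
    rintro _ _ ⟨p, y, rfl⟩ ⟨q, z, rfl⟩
    refine ⟨p + q, y + z, ?_⟩
    rw [map_add]; ring
  zero_mem' := ⟨0, 0, by simp⟩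
  neg_mem' := by
    rintro _ ⟨p, y, rfl⟩
    refine ⟨-p, -y, ?_⟩
    rw [map_neg]; ring

omit [NumberField K] in
theorem self_mem_ordSeq (s : 𝓞 K) (i : ℕ) : s ∈ ordSeq s i := ⟨X, 0, by simp⟩

theorem index_ordSeq (s : 𝓞 K) (g : ℤ[X]) (hg : g.Monic) (hgs : aeval s g = 0)
    (hl : g.natDegree < Module.finrank ℚ K) (i : ℕ) (hi : 0 < i) :
    i ≤ (ordSeq s i).toAddSubgroup.index := by
  set n := Module.finrank ℚ K with hn
  set l := g.natDegree with hl'
  set H : AddSubgroup (𝓞 K) := (Ideal.span {(i : 𝓞 K)}).toAddSubgroup with hH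
  have hHidx : H.index = i ^ n := by
    rw [hH, ← Ideal.absNorm_eq_index, Ideal.absNorm_span_natCast, RingOfIntegers.rank]
  have hle : H ≤ (ordSeq s i).toAddSubgroup := by
    intro x hx
    obtain ⟨y, rfl⟩ := Ideal.mem_span_singleton'.mp hx
    exact ⟨0, y, by simp [mul_comm]⟩
  have hmul := AddSubgroup.relIndex_mul_index hle
  rw [hHidx] at hmul
  have hg1 : g ≠ 1 := by
    rintro rfl
    simp at hgs
  have hrel : H.relIndex (ordSeq s i).toAddSubgroup ≤ i ^ l := by
    have : NeZero i := ⟨hi.ne'⟩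
    let φ : (Fin l → Fin i) →
        ((ordSeq s i).toAddSubgroup ⧸ H.addSubgroupOf (ordSeq s i).toAddSubgroup) :=
      fun c => QuotientAddGroup.mk ⟨aeval s (∑ t : Fin l, C ((c t : ℕ) : ℤ) * X ^ (t : ℕ)),
        ⟨(∑ t : Fin l, C ((c t : ℕ) : ℤ) * X ^ (t : ℕ)), 0, by rw [mul_zero, add_zero]⟩⟩
    have hφ : Function.Surjective φ := by
      intro q
      obtain ⟨⟨x, p, y, rfl⟩, rfl⟩ := QuotientAddGroup.mk_surjective q
      set r := p %ₘ g with hr
      have hr1 : aeval s r = aeval s p := aeval_modByMonic_eq_self_of_root hgs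
      have hr2 : r.natDegree < l := natDegree_modByMonic_lt p hg hg1
      have hr3 : aeval s r = ∑ t : Fin l, (r.coeff t : 𝓞 K) * s ^ (t : ℕ) := by
        rw [aeval_eq_sum_range' hr2, Finset.sum_range]
        simp [zsmul_eq_mul]
      refine ⟨fun t => ⟨(r.coeff t % (i : ℤ)).toNat, ?_⟩, ?_⟩
      · have h1 : 0 ≤ r.coeff t % (i : ℤ) := Int.emod_nonneg _ (by exact_mod_cast hi.ne')
        have h2 : r.coeff t % (i : ℤ) < i := Int.emod_lt_of_pos _ (by exact_mod_cast hi)
        omega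
      · simp only [φ]
        rw [QuotientAddGroup.eq, AddSubgroup.mem_addSubgroupOf]
        show _ ∈ Ideal.span {(i : 𝓞 K)}
        rw [Ideal.mem_span_singleton']
        refine ⟨y + ∑ t : Fin l, ((r.coeff t / (i : ℤ) : ℤ) : 𝓞 K) * s ^ (t : ℕ), ?_⟩
        simp only [AddSubgroup.coe_add, AddSubgroup.coe_neg]
        rw [← hr1, hr3]
        simp only [map_sum, map_mul, aeval_C, map_pow, aeval_X]
        have key : ∀ t : Fin l, (r.coeff t : 𝓞 K) * s ^ (t : ℕ) =
            ((r.coeff t / (i : ℤ) : ℤ) : 𝓞 K) * s ^ (t : ℕ) * (i : 𝓞 K) +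
            (algebraMap ℤ (𝓞 K)) ((r.coeff t % (i : ℤ)).toNat : ℤ) * s ^ (t : ℕ) := by
          intro t
          have h1 : ((r.coeff t % (i : ℤ)).toNat : ℤ) = r.coeff t % (i : ℤ) :=
            Int.toNat_of_nonneg (Int.emod_nonneg _ (by exact_mod_cast hi.ne'))
          rw [h1]
          have h2 : r.coeff t = (i : ℤ) * (r.coeff t / (i : ℤ)) + r.coeff t % (i : ℤ) :=
            (Int.mul_ediv_add_emod _ _).symm
          conv_lhs => rw [h2]
          simp only [eq_intCast]
          push_cast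
          ring
        rw [Finset.sum_congr rfl (fun t _ => key t), Finset.sum_add_distrib, add_mul,
          Finset.sum_mul]
        ring
    have := Nat.card_le_card_of_surjective φ hφ
    simpa [AddSubgroup.relIndex, AddSubgroup.index] using this
  have hpos : 0 < H.relIndex (ordSeq s i).toAddSubgroup := by
    rcases Nat.eq_zero_or_pos (H.relIndex (ordSeq s i).toAddSubgroup) with h0 | h0
    · rw [h0, zero_mul] at hmul
      exact absurd hmul.symm (pow_pos hi n).ne'
    · exact h0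
  by_contra hlt
  push Not at hlt
  have h1 : H.relIndex (ordSeq s i).toAddSubgroup * (ordSeq s i).toAddSubgroup.index
      < i ^ l * i :=
    lt_of_lt_of_le (Nat.mul_lt_mul_of_pos_left hlt hpos) (Nat.mul_le_mul_right _ hrel)
  rw [hmul, ← pow_succ] at h1
  exact absurd (Nat.pow_le_pow_right hi hl) (not_le.mpr h1)

end field

theorem exists_field_of_poly (n : ℕ) (f : ℤ[X]) (hf : f.Monic)
    (hirr : Irreducible (f.map (Int.castRingHom ℚ))) (hdeg : f.natDegree = n)
    (ρ : Fin n → ℝ) (hρ : Function.Injective ρ) (hroot : ∀ j, aeval (ρ j) f = 0) :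
    ∃ (K : Type) (_ : Field K) (_ : NumberField K) (_ : Fin n ≃ (K →+* ℝ)) (θ : 𝓞 K),
      Module.finrank ℚ K = n ∧ aeval θ f = 0 := by
  set fQ := f.map (Int.castRingHom ℚ) with hfQ
  have : Fact (Irreducible fQ) := ⟨hirr⟩
  have hne : fQ ≠ 0 := hirr.ne_zero
  have hdegQ : fQ.natDegree = n := by rw [hfQ, hf.natDegree_map, hdeg]
  have : CharZero (AdjoinRoot fQ) :=
    charZero_of_injective_algebraMap (algebraMap ℚ (AdjoinRoot fQ)).injective
  have : FiniteDimensional ℚ (AdjoinRoot fQ) := (AdjoinRoot.powerBasis hne).finite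
  have : NumberField (AdjoinRoot fQ) := ⟨⟩
  have hfin : Module.finrank ℚ (AdjoinRoot fQ) = n := by
    rw [(AdjoinRoot.powerBasis hne).finrank, AdjoinRoot.powerBasis_dim, hdegQ]
  have hrootK : aeval (AdjoinRoot.root fQ) f = 0 := by
    have h1 := AdjoinRoot.eval₂_root fQ
    rw [hfQ, eval₂_map] at h1
    rw [aeval_def, RingHom.ext_int (algebraMap ℤ (AdjoinRoot fQ))
      ((AdjoinRoot.of fQ).comp (Int.castRingHom ℚ))]
    exact h1
  have hint : IsIntegral ℤ (AdjoinRoot.root fQ) := ⟨f, hf, by rw [← aeval_def]; exact hrootK⟩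
  have hcard : Nat.card (AdjoinRoot fQ →+* ℝ) = n := by
    apply le_antisymm
    · rw [Nat.card_congr (RingHom.equivRatAlgHom (AdjoinRoot fQ) ℝ)]
      exact (card_algHom_le_finrank ℚ (AdjoinRoot fQ) ℝ).trans_eq hfin
    · have h2 : ∀ j, fQ.eval₂ (algebraMap ℚ ℝ) (ρ j) = 0 := by
        intro j
        have h3 := hroot j
        rw [aeval_def] at h3
        rw [hfQ, eval₂_map, RingHom.ext_int ((algebraMap ℚ ℝ).comp (Int.castRingHom ℚ))
          (algebraMap ℤ ℝ)]
        exact h3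
      let e : Fin n → (AdjoinRoot fQ →+* ℝ) :=
        fun j => AdjoinRoot.lift (algebraMap ℚ ℝ) (ρ j) (h2 j)
      have he : Function.Injective e := by
        intro a b hab
        apply hρ
        have := congrArg (fun φ : AdjoinRoot fQ →+* ℝ => φ (AdjoinRoot.root fQ)) hab
        simpa [e] using this
      have := Nat.card_le_card_of_injective e he
      simpa using this
  refine ⟨AdjoinRoot fQ, inferInstance, inferInstance, (Finite.equivFinOfCardEq hcard).symm,
    IsIntegralClosure.mk' (𝓞 (AdjoinRoot fQ)) (AdjoinRoot.root fQ) hint, hfin, ?_⟩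
  apply RingOfIntegers.coe_injective
  rw [← aeval_algebraMap_apply, IsIntegralClosure.algebraMap_mk', hrootK, map_zero]

theorem irreducible_of_eis2 (f : ℤ[X]) (hf : f.Monic) (hdeg : 0 < f.natDegree)
    (hmod : ∀ i < f.natDegree, (2 : ℤ) ∣ f.coeff i) (h0 : ¬ (4 : ℤ) ∣ f.coeff 0) :
    Irreducible (f.map (Int.castRingHom ℚ)) := by
  rw [← Polynomial.IsPrimitive.Int.irreducible_iff_irreducible_map_cast hf.isPrimitive]
  apply irreducible_of_eisenstein_criterion (P := Ideal.span {(2 : ℤ)})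
  · exact (Ideal.span_singleton_prime (by norm_num)).mpr Int.prime_two
  · rw [hf.leadingCoeff, Ideal.mem_span_singleton]; norm_num
  · intro i hi
    rw [Ideal.mem_span_singleton]
    apply hmod
    rw [degree_eq_natDegree hf.ne_zero] at hi
    exact_mod_cast hi
  · rw [degree_eq_natDegree hf.ne_zero]; exact_mod_cast hdeg
  · rw [Ideal.span_singleton_pow, Ideal.mem_span_singleton]; norm_num; exact h0
  · exact hf.isPrimitive

/-- The conclusion: failure of equidistribution in degree `n`. -/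
def Fails (n : ℕ) : Prop :=
  ∃ (K : Type) (_ : Field K) (_ : NumberField K) (σ : Fin n ≃ (K →+* ℝ))
    (O : ℕ → Subring (𝓞 K)),
    Module.finrank ℚ K = n ∧ (∀ i, IsOrder (O i)) ∧
    Tendsto (fun i => absDisc (O i)) atTop atTop ∧
    ∀ (m : Measure (LatSpace n)) [IsProbabilityMeasure m]
      [SMulInvariantMeasure (SLR n) (LatSpace n) m],
      ∃ f : C_c(LatSpace n, ℝ), 0 < ∫ x, f x ∂m ∧
        ∀ μ : ℕ → Measure (LatSpace n), (∀ i, IsProbabilityMeasure (μ i)) →
          (∀ i, μ i (packetSet σ (O i))ᶜ = 0) →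
          (∀ i, ∫ x, f x ∂(μ i) = 0) ∧
          ¬ Tendsto (fun i => ∫ x, f x ∂(μ i)) atTop (𝓝 (∫ x, f x ∂m))

theorem fails_of_poly (n : ℕ) (hn : 0 < n) (f g T : ℤ[X]) (hf : f.Monic)
    (hirr : Irreducible (f.map (Int.castRingHom ℚ))) (hdeg : f.natDegree = n)
    (ρ : Fin n → ℝ) (hρ : Function.Injective ρ) (hroot : ∀ j, aeval (ρ j) f = 0)
    (hg : g.Monic) (hgl : g.natDegree < n) (hfg : f = g.comp T)
    (hgz : ∀ z : ℤ, g.eval z ≠ 0) : Fails n := by
  obtain ⟨K, _, _, σ, θ, hfin, hθ⟩ := exists_field_of_poly n f hf hirr hdeg ρ hρ hroot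
  set s : 𝓞 K := aeval θ T with hs
  have hsg : aeval s g = 0 := by rw [hs, ← aeval_comp, ← hfg, hθ]
  have hidx : ∀ i : ℕ, i + 1 ≤ (ordSeq s (i + 1)).toAddSubgroup.index := fun i =>
    index_ordSeq s g hg hsg (by rw [hfin]; exact hgl) (i + 1) (Nat.succ_pos i)
  refine ⟨K, inferInstance, inferInstance, σ, fun i => ordSeq s (i + 1), hfin, ?_, ?_, ?_⟩
  · intro i
    have := hidx i
    show (ordSeq s (i + 1)).toAddSubgroup.index ≠ 0
    omega
  · apply tendsto_atTop_mono (f := fun i : ℕ => i) _ tendsto_id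
    intro i
    have h1 := hidx i
    have h2 : 1 ≤ (NumberField.discr K).natAbs :=
      Nat.one_le_iff_ne_zero.mpr (Int.natAbs_ne_zero.mpr (NumberField.discr_ne_zero K))
    unfold absDisc
    nlinarith [Nat.zero_le i]
  · intro m _ _
    have h1 : (1 : SLR n) ∉ intConj (fun j => σ j (s : K)) := by
      apply one_not_mem_intConj _ ⟨0, hn⟩
      intro k hk
      apply hgz k
      have h3 : aeval (σ ⟨0, hn⟩ (s : K)) g = σ ⟨0, hn⟩ (aeval (s : K) g) := by
        simp only [aeval_def, hom_eval₂]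
        congr 1
        exact RingHom.ext_int _ _
      have h4 : aeval (s : K) g = 0 := by
        rw [aeval_algebraMap_apply, hsg, map_zero]
      rw [h4, map_zero, hk] at h3
      have h5 : aeval ((k : ℤ) : ℝ) g = ((g.eval k : ℤ) : ℝ) := by
        have := aeval_algebraMap_apply_eq_algebraMap_eval (A := ℝ) k g
        simpa using this
      rw [h5] at h3
      exact_mod_cast h3
    obtain ⟨f', hpos, hf'⟩ := no_conv_of_closed n _ (intConj_closed _) h1 m
    refine ⟨f', hpos, fun μ _ hμ => ?_⟩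
    have hz : ∀ i, ∫ x, f' x ∂(μ i) = 0 := fun i =>
      hf' _ (fun g hg => packet_rep_mem σ _ s (self_mem_ordSeq s (i + 1)) g hg) (μ i) (hμ i)
    refine ⟨hz, ?_⟩
    simp only [hz]
    intro hlim
    have := tendsto_nhds_unique hlim tendsto_const_nhds
    exact hpos.ne' this

end Vale.Agent.Lib.P007
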