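import Mathlib

/-!
# P007: definitions for torus packets of orders in totally real fields

Column-vector convention: a point of `SL_n(ℝ)/SL_n(ℤ)` is the coset of `g`, standing for the
unimodular lattice `g ℤ^n`.  Transposition identifies this with `SL_n(ℤ)\SL_n(ℝ)` (row vectors,
right action); diagonal matrices act in the same way on lattices in both pictures.
-/

open Matrix NumberField

namespace Vale.Agent.Lib.P007

/-- `SL_n(ℝ)`. -/
abbrev SLR (n : ℕ) := Matrix.SpecialLinearGroup (Fin n) ℝ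

/-- `SL_n(ℤ)` as a subgroup of `SL_n(ℝ)`. -/
def SLZ (n : ℕ) : Subgroup (SLR n) := (Matrix.SpecialLinearGroup.map (Int.castRingHom ℝ)).range

/-- The space of unimodular lattices `SL_n(ℝ)/SL_n(ℤ)` with the quotient topology;
the coset of `g` stands for the lattice `g ℤ^n`. -/
abbrev LatSpace (n : ℕ) := SLR n ⧸ SLZ n

/-- The Borel sigma-algebra on the space of lattices. -/
instance (n : ℕ) : MeasurableSpace (LatSpace n) := borel _

instance (n : ℕ) : BorelSpace (LatSpace n) := ⟨rfl⟩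

/-- The lattice `g ℤ^n`. -/
def latOf {n : ℕ} (g : SLR n) : Set (Fin n → ℝ) :=
  {v | ∃ z : Fin n → ℤ, v = g.1 *ᵥ (fun j => (z j : ℝ))}

variable {K : Type*} [Field K] [NumberField K]

/-- A subring `O` of the ring of integers, viewed as a `ℤ`-submodule of `K`. -/
def ordK (O : Subring (𝓞 K)) : Submodule ℤ K :=
  AddSubgroup.toIntSubmodule (O.map (algebraMap (𝓞 K) K)).toAddSubgroup

/-- An order: a subring of `𝓞 K` of finite additive index (equivalently, of full rank). -/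
def IsOrder (O : Subring (𝓞 K)) : Prop := O.toAddSubgroup.index ≠ 0

/-- `|Disc O| = |Disc K| [𝓞 K : O]^2`. -/
noncomputable def absDisc (O : Subring (𝓞 K)) : ℕ :=
  (NumberField.discr K).natAbs * O.toAddSubgroup.index ^ 2

/-- Fractional `O`-ideals: nonzero `O`-stable subgroups `I` of `K` with `d I ⊆ O` for some
nonzero `d ∈ O`. -/
def IsFracIdeal (O : Subring (𝓞 K)) (I : Submodule ℤ K) : Prop :=
  (∀ a ∈ ordK O, ∀ x ∈ I, a * x ∈ I) ∧ I ≠ ⊥ ∧ ∃ d ∈ ordK O, d ≠ 0 ∧ ∀ x ∈ I, d * x ∈ ordK O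

/-- Proper: the multiplier ring `{a : a I ⊆ I}` is exactly `O`. -/
def IsProperIdeal (O : Subring (𝓞 K)) (I : Submodule ℤ K) : Prop :=
  ∀ a : K, (∀ x ∈ I, a * x ∈ I) ↔ a ∈ ordK O

/-- Invertible: `I J = O` for some fractional `O`-ideal `J`. -/
def IsInvertibleIdeal (O : Subring (𝓞 K)) (I : Submodule ℤ K) : Prop :=
  ∃ J : Submodule ℤ K, IsFracIdeal O J ∧ I * J = ordK O

/-- The union of the orbits `Λ_I w A_n` of the packet of `(O, σ)`: all unimodular lattices
`c · diag(w_j e^{u_j}) · σ(I)` with `I` a proper invertible fractional `O`-ideal, `c > 0`,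
signs `w_j = ±1` and `∑ u_j = 0`. -/
def packetSet {n : ℕ} (σ : Fin n ≃ (K →+* ℝ)) (O : Subring (𝓞 K)) : Set (LatSpace n) :=
  {x | ∃ (g : SLR n) (I : Submodule ℤ K) (c : ℝ) (w u : Fin n → ℝ),
      x = (g : LatSpace n) ∧ IsFracIdeal O I ∧ IsProperIdeal O I ∧ IsInvertibleIdeal O I ∧
      0 < c ∧ (∀ j, w j = 1 ∨ w j = -1) ∧ ∑ j, u j = 0 ∧
      latOf g = {v | ∃ α ∈ I, v = fun j => c * (w j * Real.exp (u j) * σ j α)}}

end Vale.Agent.Lib.P007
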