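import Vale.Agent.Lib.P007.Core

open Matrix MeasureTheory Filter Topology NumberField Polynomial
open scoped CompactlySupported

namespace Vale.Agent.Lib.P007

/-- union of the sets `intConj D` over all `D` with entries real roots of `g` -/
def intConjRoots (n : ℕ) (g : ℤ[X]) : Set (SLR n) :=
  {h | ∃ D : Fin n → ℝ, (∀ j, aeval (D j) g = 0) ∧ h ∈ intConj D}

theorem intConjRoots_closed (n : ℕ) (g : ℤ[X]) (hg : g ≠ 0) : IsClosed (intConjRoots n g) := by
  have hfin : (Set.pi Set.univ (fun _ : Fin n => g.rootSet ℝ)).Finite :=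
    Set.Finite.pi (fun _ => Polynomial.rootSet_finite g ℝ)
  have : intConjRoots n g = ⋃ D ∈ Set.pi Set.univ (fun _ : Fin n => g.rootSet ℝ), intConj D := by
    ext h
    simp only [intConjRoots, Set.mem_ofPred_eq, Set.mem_iUnion, Set.mem_pi, Set.mem_univ,
      forall_true_left, exists_prop]
    constructor
    · rintro ⟨D, hD, hh⟩
      exact ⟨D, fun j => (Polynomial.mem_rootSet_of_ne hg).mpr (hD j), hh⟩
    · rintro ⟨D, hD, hh⟩
      exact ⟨D, fun j => (Polynomial.mem_rootSet_of_ne hg).mp (hD j), hh⟩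
  rw [this]
  exact hfin.isClosed_biUnion (fun D _ => intConj_closed D)

theorem aeval_intCast_real (g : ℤ[X]) (k : ℤ) : aeval ((k : ℤ) : ℝ) g = ((g.eval k : ℤ) : ℝ) := by
  have := aeval_algebraMap_apply_eq_algebraMap_eval (A := ℝ) k g
  simpa using this

theorem one_not_mem_intConjRoots (n : ℕ) (hn : 0 < n) (g : ℤ[X]) (hgz : ∀ z : ℤ, g.eval z ≠ 0) :
    (1 : SLR n) ∉ intConjRoots n g := by
  rintro ⟨D, hD, hh⟩
  refine one_not_mem_intConj D ⟨0, hn⟩ ?_ hh
  intro k hk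
  apply hgz k
  have h3 := hD ⟨0, hn⟩
  rw [hk, aeval_intCast_real] at h3
  exact_mod_cast h3

theorem aeval_embedding {K : Type*} [Field K] (φ : K →+* ℝ) (s : 𝓞 K) (g : ℤ[X])
    (hs : aeval s g = 0) : aeval (φ (s : K)) g = 0 := by
  have h3 : aeval (φ (s : K)) g = φ (aeval (s : K) g) := by
    simp only [aeval_def, hom_eval₂]
    congr 1
    exact RingHom.ext_int _ _
  have h4 : aeval (s : K) g = 0 := by
    rw [aeval_algebraMap_apply, hs, map_zero]
  rw [h3, h4, map_zero]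

theorem obstruction (n : ℕ) (hn : 0 < n) (g : ℤ[X]) (hgz : ∀ z : ℤ, g.eval z ≠ 0)
    (m : Measure (LatSpace n)) [IsProbabilityMeasure m]
    [SMulInvariantMeasure (SLR n) (LatSpace n) m] :
    ∃ f : C_c(LatSpace n, ℝ), 0 < ∫ x, f x ∂m ∧
      ∀ (K : Type) [Field K] [NumberField K] (σ : Fin n ≃ (K →+* ℝ)) (O : Subring (𝓞 K)),
        (∃ s ∈ O, aeval s g = 0) → ∀ μ : Measure (LatSpace n), μ (packetSet σ O)ᶜ = 0 →
          ∫ x, f x ∂μ = 0 := by
  have hg : g ≠ 0 := by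
    rintro rfl
    exact hgz 0 (by simp)
  obtain ⟨f, hpos, hf⟩ := no_conv_of_closed n _ (intConjRoots_closed n g hg)
    (one_not_mem_intConjRoots n hn g hgz) m
  refine ⟨f, hpos, ?_⟩
  intro K _ _ σ O ⟨s, hsO, hs⟩ μ hμ
  refine hf _ (fun h hh => ?_) μ hμ
  exact ⟨fun j => σ j (s : K), fun j => aeval_embedding _ s g hs, packet_rep_mem σ O s hsO h hh⟩

end Vale.Agent.Lib.P007
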