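import Vale.Agent.Lib.P007.Core

open Matrix MeasureTheory Filter Topology NumberField Polynomial

namespace Vale.Agent.Lib.P007

variable {K : Type*} [Field K] [NumberField K]

/-- `O` as a `ℤ`-submodule of `𝓞 K` -/
def ordMod (O : Subring (𝓞 K)) : Submodule ℤ (𝓞 K) := AddSubgroup.toIntSubmodule O.toAddSubgroup

omit [NumberField K] in
theorem index_smul_mem (O : Subring (𝓞 K)) (x : 𝓞 K) : O.toAddSubgroup.index • x ∈ O := by
  have := AddSubgroup.nsmul_index_mem O.toAddSubgroup x
  exact this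

theorem finrank_ordMod (O : Subring (𝓞 K)) (hO : IsOrder O) :
    Module.finrank ℤ (ordMod O) = Module.finrank ℚ K := by
  rw [← RingOfIntegers.rank K]
  apply le_antisymm
  · exact Submodule.finrank_le _
  · let ψ : 𝓞 K →ₗ[ℤ] ordMod O :=
      { toFun := fun x => ⟨O.toAddSubgroup.index • x, index_smul_mem O x⟩
        map_add' := by intro x y; ext; simp [smul_add]
        map_smul' := by intro r x; ext; simp; ring }
    apply LinearMap.finrank_le_finrank_of_injective (f := ψ)
    intro x y hxy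
    have h1 : O.toAddSubgroup.index • x = O.toAddSubgroup.index • y := congrArg Subtype.val hxy
    exact smul_right_injective _ hO h1

/-- every element of `K` has a nonzero integer multiple in `O` -/
theorem exists_int_mul_mem (O : Subring (𝓞 K)) (hO : IsOrder O) (x : K) :
    ∃ d : ℤ, d ≠ 0 ∧ ∃ y ∈ O, (d : K) * x = (y : K) := by
  have halg : IsAlgebraic ℤ x := by
    have : IsAlgebraic ℚ x := Algebra.IsAlgebraic.isAlgebraic x
    exact (IsFractionRing.isAlgebraic_iff ℤ ℚ K).mpr this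
  obtain ⟨d, hd, hint⟩ := halg.exists_integral_multiple
  set y : 𝓞 K := IsIntegralClosure.mk' (𝓞 K) (d • x) hint with hy
  have hyK : (y : K) = d • x := IsIntegralClosure.algebraMap_mk' _ _ _
  refine ⟨(O.toAddSubgroup.index : ℤ) * d, mul_ne_zero (by exact_mod_cast hO) hd,
    O.toAddSubgroup.index • y, index_smul_mem O y, ?_⟩
  rw [nsmul_eq_mul]
  show _ = algebraMap (𝓞 K) K _
  rw [map_mul, map_natCast]
  have hyK' : algebraMap (𝓞 K) K y = d • x := hyK
  rw [hyK', zsmul_eq_mul]
  push_cast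
  ring

theorem det_embeddings_ne_zero {n : ℕ} (σ : Fin n ≃ (K →+* ℝ)) (O : Subring (𝓞 K)) (hO : IsOrder O)
    (b : Module.Basis (Fin n) ℤ (ordMod O)) :
    (Matrix.of fun j a => σ j (((b a : ordMod O) : 𝓞 K) : K)).det ≠ 0 := by
  intro hdet
  obtain ⟨v, hv0, hv⟩ := Matrix.exists_vecMul_eq_zero_iff.mpr hdet
  have hb : ∀ a, ∑ j, v j * σ j (((b a : ordMod O) : 𝓞 K) : K) = 0 := by
    intro a
    have := congrFun hv a
    simpa [Matrix.vecMul, dotProduct] using this
  have hO' : ∀ y ∈ O, ∑ j, v j * σ j ((y : 𝓞 K) : K) = 0 := by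
    intro y hy
    have hrep := b.sum_repr ⟨y, hy⟩
    have hrep' : y = ∑ a, (b.repr ⟨y, hy⟩ a) • ((b a : ordMod O) : 𝓞 K) := by
      have h0 := congrArg (Subtype.val) hrep
      rw [Submodule.coe_sum] at h0
      exact h0.symm
    have hK : ((y : 𝓞 K) : K) = ∑ a, ((b.repr ⟨y, hy⟩ a : ℤ) : K) * (((b a : ordMod O) : 𝓞 K) : K) := by
      conv_lhs => rw [hrep']
      show algebraMap (𝓞 K) K _ = _
      rw [map_sum]
      apply Finset.sum_congr rfl
      intro a _
      rw [zsmul_eq_mul, map_mul, map_intCast]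
    rw [hK]
    simp only [map_sum, map_mul, map_intCast, Finset.mul_sum]
    rw [Finset.sum_comm]
    apply Finset.sum_eq_zero
    intro a _
    have := hb a
    calc ∑ j, v j * (((b.repr ⟨y, hy⟩ a : ℤ) : ℝ) * σ j (((b a : ordMod O) : 𝓞 K) : K))
        = ((b.repr ⟨y, hy⟩ a : ℤ) : ℝ) * ∑ j, v j * σ j (((b a : ordMod O) : 𝓞 K) : K) := by
          rw [Finset.mul_sum]; apply Finset.sum_congr rfl; intro j _; ring
      _ = 0 := by rw [this, mul_zero]
  have hall : ∀ x : K, ∑ j, v j * σ j x = 0 := by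
    intro x
    obtain ⟨d, hd, y, hy, hxy⟩ := exists_int_mul_mem O hO x
    have h1 := hO' y hy
    rw [← hxy] at h1
    simp only [map_mul, map_intCast] at h1
    have h2 : (d : ℝ) * ∑ j, v j * σ j x = 0 := by
      rw [Finset.mul_sum, ← h1]; apply Finset.sum_congr rfl; intro j _; ring
    rcases mul_eq_zero.mp h2 with h3 | h3
    · exact absurd (by exact_mod_cast h3) hd
    · exact h3
  have hli := linearIndependent_monoidHom K ℝ
  have hinj : Function.Injective (fun j : Fin n => ((σ j : K →+* ℝ) : K →* ℝ)) := by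
    intro i j hij
    apply σ.injective
    ext x
    exact congrArg (fun φ : K →* ℝ => φ x) hij
  have hli2 := hli.comp _ hinj
  rw [Fintype.linearIndependent_iff] at hli2
  apply hv0
  ext j
  apply hli2 v
  ext x
  simpa using hall x

omit [NumberField K] in
theorem mem_ordK_iff {O : Subring (𝓞 K)} {x : K} : x ∈ ordK O ↔ ∃ y ∈ O, ((y : 𝓞 K) : K) = x :=
  Iff.rfl

omit [NumberField K] in
theorem ordK_mul_mem {O : Subring (𝓞 K)} {x y : K} (hx : x ∈ ordK O) (hy : y ∈ ordK O) :
    x * y ∈ ordK O := by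
  obtain ⟨a, ha, rfl⟩ := mem_ordK_iff.mp hx
  obtain ⟨b, hb, rfl⟩ := mem_ordK_iff.mp hy
  exact mem_ordK_iff.mpr ⟨a * b, O.mul_mem ha hb, map_mul _ _ _⟩

omit [NumberField K] in
theorem one_mem_ordK (O : Subring (𝓞 K)) : (1 : K) ∈ ordK O :=
  mem_ordK_iff.mpr ⟨1, O.one_mem, map_one _⟩

omit [NumberField K] in
theorem isFracIdeal_self (O : Subring (𝓞 K)) : IsFracIdeal O (ordK O) := by
  refine ⟨fun a ha x hx => ordK_mul_mem ha hx, ?_, 1, one_mem_ordK O, one_ne_zero, ?_⟩
  · intro h
    have := one_mem_ordK O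
    rw [h] at this
    exact one_ne_zero ((Submodule.mem_bot ℤ).mp this)
  · intro x hx
    rwa [one_mul]

omit [NumberField K] in
theorem isProperIdeal_self (O : Subring (𝓞 K)) : IsProperIdeal O (ordK O) := by
  intro a
  constructor
  · intro h
    have := h 1 (one_mem_ordK O)
    rwa [mul_one] at this
  · intro ha x hx
    exact ordK_mul_mem ha hx

omit [NumberField K] in
theorem isInvertibleIdeal_self (O : Subring (𝓞 K)) : IsInvertibleIdeal O (ordK O) := by
  refine ⟨ordK O, isFracIdeal_self O, le_antisymm ?_ ?_⟩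
  · rw [Submodule.mul_le]
    intro x hx y hy
    exact ordK_mul_mem hx hy
  · intro x hx
    have := Submodule.mul_mem_mul hx (one_mem_ordK O)
    rwa [mul_one] at this

theorem packetSet_nonempty {n : ℕ} (σ : Fin n ≃ (K →+* ℝ)) (hn : Module.finrank ℚ K = n)
    (O : Subring (𝓞 K)) (hO : IsOrder O) : (packetSet σ O).Nonempty := by
  have hnpos : 0 < n := hn ▸ Module.finrank_pos
  let b : Module.Basis (Fin n) ℤ (ordMod O) :=
    Module.finBasisOfFinrankEq ℤ (ordMod O) (by rw [finrank_ordMod O hO, hn])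
  set M : Matrix (Fin n) (Fin n) ℝ := Matrix.of fun j a => σ j (((b a : ordMod O) : 𝓞 K) : K) with hM
  have hD : M.det ≠ 0 := det_embeddings_ne_zero σ O hO b
  set D := M.det with hDdef
  have hDabs : 0 < |D| := abs_pos.mpr hD
  set c : ℝ := |D| ^ (-(1 / (n : ℝ))) with hc
  have hcpos : 0 < c := Real.rpow_pos_of_pos hDabs _
  have hcn : c ^ n = |D|⁻¹ := by
    rw [hc, ← Real.rpow_natCast, ← Real.rpow_mul hDabs.le]
    have : -(1 / (n : ℝ)) * (n : ℝ) = -1 := by
      have : (n : ℝ) ≠ 0 := by exact_mod_cast hnpos.ne'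
      field_simp
    rw [this, Real.rpow_neg_one]
  set sg : ℝ := if 0 < D then 1 else -1 with hsg
  have hsgD : sg * D = |D| := by
    rw [hsg]
    split_ifs with h
    · rw [one_mul, abs_of_pos h]
    · rw [abs_of_neg (lt_of_le_of_ne (not_lt.mp h) hD)]; ring
  have hsg1 : sg = 1 ∨ sg = -1 := by
    rw [hsg]; split_ifs <;> simp
  set w : Fin n → ℝ := fun j => if j = ⟨0, hnpos⟩ then sg else 1 with hw
  have hwprod : ∏ j, w j = sg := by
    rw [hw]
    simp [Finset.prod_ite_eq']
  have hdet : (c • (Matrix.diagonal w * M)).det = 1 := by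
    rw [Matrix.det_smul, Matrix.det_mul, Matrix.det_diagonal, hwprod, Fintype.card_fin, hcn,
      ← hDdef, hsgD]
    exact inv_mul_cancel₀ hDabs.ne'
  let g0 : SLR n := ⟨c • (Matrix.diagonal w * M), hdet⟩
  refine ⟨(g0 : LatSpace n), g0, ordK O, c, w, 0, rfl, isFracIdeal_self O,
    isProperIdeal_self O, isInvertibleIdeal_self O, hcpos, ?_, by simp, ?_⟩
  · intro j
    rw [hw]
    simp only
    split_ifs
    · exact hsg1
    · left; rfl
  · have hentry : ∀ (z : Fin n → ℤ) (j : Fin n),
        ((c • (Matrix.diagonal w * M)) *ᵥ (fun a => (z a : ℝ))) j =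
        c * (w j * Real.exp ((0 : Fin n → ℝ) j) *
          σ j (∑ a, ((z a : ℤ) : K) * (((b a : ordMod O) : 𝓞 K) : K))) := by
      intro z j
      simp only [Matrix.smul_mulVec, Pi.smul_apply, smul_eq_mul, Pi.zero_apply, Real.exp_zero,
        mul_one, map_sum, map_mul, map_intCast]
      congr 1
      rw [← Matrix.mulVec_mulVec, Matrix.mulVec_diagonal]
      congr 1
      simp only [Matrix.mulVec, dotProduct, hM, Matrix.of_apply]
      apply Finset.sum_congr rfl
      intro a _
      ring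
    have hsum : ∀ z : Fin n → ℤ, (∑ a, ((z a : ℤ) : K) * (((b a : ordMod O) : 𝓞 K) : K)) =
        (((∑ a, z a • b a : ordMod O) : 𝓞 K) : K) := by
      intro z
      rw [Submodule.coe_sum]
      show _ = algebraMap (𝓞 K) K _
      rw [map_sum]
      apply Finset.sum_congr rfl
      intro a _
      rw [Submodule.coe_smul, zsmul_eq_mul, map_mul, map_intCast]
    ext v
    constructor
    · rintro ⟨z, rfl⟩
      refine ⟨∑ a, ((z a : ℤ) : K) * (((b a : ordMod O) : 𝓞 K) : K), ?_, ?_⟩
      · rw [hsum]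
        exact mem_ordK_iff.mpr ⟨_, (∑ a, z a • b a : ordMod O).2, rfl⟩
      · ext j
        exact hentry z j
    · rintro ⟨α, hα, rfl⟩
      obtain ⟨y, hy, rfl⟩ := mem_ordK_iff.mp hα
      refine ⟨fun a => b.repr ⟨y, hy⟩ a, ?_⟩
      ext j
      rw [hentry, hsum, b.sum_repr]

theorem isTotallyReal_of_equiv {n : ℕ} (σ : Fin n ≃ (K →+* ℝ)) (hn : Module.finrank ℚ K = n) :
    IsTotallyReal K := by
  let e : Fin n → (K →+* ℂ) := fun j => Complex.ofRealHom.comp (σ j)
  have hinj : Function.Injective e := by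
    intro i j hij
    apply σ.injective
    ext x
    have := congrArg (fun φ : K →+* ℂ => φ x) hij
    simpa [e] using this
  have hcard : Fintype.card (Fin n) = Fintype.card (K →+* ℂ) := by
    rw [Fintype.card_fin, NumberField.Embeddings.card, hn]
  have hbij : Function.Bijective e := (Fintype.bijective_iff_injective_and_card e).mpr ⟨hinj, hcard⟩
  refine ⟨fun v => ?_⟩
  rw [← InfinitePlace.mk_embedding v, InfinitePlace.isReal_mk_iff]
  obtain ⟨j, hj⟩ := hbij.2 v.embedding
  rw [← hj, ComplexEmbedding.isReal_iff]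
  ext x
  simp [e, ComplexEmbedding.conjugate_coe_eq]

end Vale.Agent.Lib.P007
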