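import Vale.Agent.Lib.P007.Core

open Matrix MeasureTheory Filter Topology NumberField Polynomial

namespace Vale.Agent.Lib.P007

/-- the quartic `x^4 - 4 x^2 + 2`, minimal polynomial of `sqrt (2 + sqrt 2)` -/
noncomputable def f4 : ℤ[X] := X ^ 4 - 4 * X ^ 2 + 2

theorem f4_comp : f4 = (X ^ 2 - 2 : ℤ[X]).comp (X ^ 2 - 2) := by
  simp only [f4, sub_comp, pow_comp, X_comp, ofNat_comp]
  ring

theorem f4_monic : f4.Monic := by
  unfold f4
  monicity!

theorem f4_natDegree : f4.natDegree = 4 := by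
  unfold f4
  compute_degree!

theorem f4_irr : Irreducible (f4.map (Int.castRingHom ℚ)) := by
  apply irreducible_of_eis2 _ f4_monic
  · rw [f4_natDegree]; norm_num
  · rw [f4_natDegree]
    intro i hi
    have h4 : (4 : ℤ[X]) = C 4 := rfl
    have h2 : (2 : ℤ[X]) = C 2 := rfl
    interval_cases i <;> simp [f4, h4, h2, coeff_X_pow, coeff_C, -eq_intCast]
  · have h4 : (4 : ℤ[X]) = C 4 := rfl
    have h2 : (2 : ℤ[X]) = C 2 := rfl
    simp [f4, h4, h2, coeff_X_pow, coeff_C, -eq_intCast]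

/-- the four real roots -/
noncomputable def rho4 : Fin 4 → ℝ :=
  ![√(2 + √2), √(2 - √2), -√(2 - √2), -√(2 + √2)]

theorem rho4_inj : Function.Injective rho4 := by
  have h2 : (0:ℝ) < √2 := by positivity
  have h2' : √2 < 2 := by
    rw [Real.sqrt_lt' (by norm_num)]; norm_num
  have h3 : 0 < √(2 - √2) := Real.sqrt_pos.mpr (by linarith)
  have h1 : √(2 - √2) < √(2 + √2) := Real.sqrt_lt_sqrt (by linarith) (by linarith)
  intro a b h
  fin_cases a <;> fin_cases b <;> simp [rho4] at h ⊢ <;> linarith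

theorem aeval_f4 (x : ℝ) : aeval x f4 = x ^ 4 - 4 * x ^ 2 + 2 := by
  have h4 : (4 : ℤ[X]) = C 4 := rfl
  have h2 : (2 : ℤ[X]) = C 2 := rfl
  simp only [f4, h4, h2, map_add, map_sub, map_mul, map_pow, aeval_X, aeval_C]
  norm_num

theorem f4_root_aux (x e : ℝ) (hx : x ^ 2 = 2 + e) (he : e ^ 2 = 2) : aeval x f4 = 0 := by
  rw [aeval_f4]
  have : x ^ 4 = (x ^ 2) ^ 2 := by ring
  rw [this, hx]
  linear_combination he

theorem rho4_root (j : Fin 4) : aeval (rho4 j) f4 = 0 := by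
  have h2 : (0:ℝ) < √2 := by positivity
  have h2' : √2 < 2 := by
    rw [Real.sqrt_lt' (by norm_num)]; norm_num
  have hs : √2 ^ 2 = 2 := Real.sq_sqrt (by norm_num)
  have ha : √(2 + √2) ^ 2 = 2 + √2 := Real.sq_sqrt (by linarith)
  have hb : √(2 - √2) ^ 2 = 2 - √2 := Real.sq_sqrt (by linarith)
  fin_cases j
  · exact f4_root_aux _ (√2) ha hs
  · exact f4_root_aux _ (-√2) (by show √(2 - √2) ^ 2 = _; rw [hb]; ring) (by rw [neg_sq]; exact hs)
  · exact f4_root_aux _ (-√2) (by show (-√(2 - √2)) ^ 2 = _; rw [neg_sq, hb]; ring)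
      (by rw [neg_sq]; exact hs)
  · exact f4_root_aux _ (√2) (by show (-√(2 + √2)) ^ 2 = _; rw [neg_sq, ha]) hs

theorem fails_four : Fails 4 := by
  apply fails_of_poly 4 (by norm_num) f4 (X ^ 2 - 2) (X ^ 2 - 2) f4_monic f4_irr f4_natDegree
    rho4 rho4_inj rho4_root
  · monicity!
  · have : (X ^ 2 - 2 : ℤ[X]).natDegree = 2 := by compute_degree!
    rw [this]; norm_num
  · exact f4_comp
  · intro z hz
    simp at hz
    have h1 : z ^ 2 = 2 := by linarith
    have h2 : z ≤ 1 := by nlinarith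
    have h3 : -1 ≤ z := by nlinarith
    interval_cases z <;> simp at h1

end Vale.Agent.Lib.P007
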